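import Vale.Agent.P197.Ind

/-! Saxl's conjecture: the tensor square of the staircase Specht module contains every
irreducible representation of the symmetric group. -/

namespace Vale.Agent.Results.P197.Saxl

open Equiv Finset Vale.Agent.P197

noncomputable section

/-- A tableau of shape `μ`: a bijective filling of the cells of `μ` by `Fin n`. -/
abbrev Tableau (n : ℕ) (μ : YoungDiagram) : Type := Fin n ≃ μ.cells

/-- The row symmetrizer: the sum of the permutations preserving every row. -/
def rowSym {n : ℕ} {μ : YoungDiagram} (t : Tableau n μ) : MonoidAlgebra ℂ (Perm (Fin n)) :=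
  ∑ g ∈ univ.filter (fun g : Perm (Fin n) => ∀ x, (t (g x)).1.1 = (t x).1.1),
    MonoidAlgebra.single g 1

/-- The column antisymmetrizer: the signed sum of the permutations preserving every column. -/
def colAnti {n : ℕ} {μ : YoungDiagram} (t : Tableau n μ) : MonoidAlgebra ℂ (Perm (Fin n)) :=
  ∑ g ∈ univ.filter (fun g : Perm (Fin n) => ∀ x, (t (g x)).1.2 = (t x).1.2),
    MonoidAlgebra.single g (((Perm.sign g : ℤˣ) : ℤ) : ℂ)

/-- The Specht module: the left ideal generated by the Young symmetrizer, as a
subrepresentation of the left regular representation. -/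
def specht {n : ℕ} {μ : YoungDiagram} (t : Tableau n μ) :
    Subrepresentation (Representation.leftRegular ℂ (Perm (Fin n))) where
  toSubmodule := LinearMap.range (LinearMap.mulRight ℂ (colAnti t * rowSym t))
  apply_mem_toSubmodule := by
    rintro g v ⟨w, rfl⟩
    refine ⟨MonoidAlgebra.single g 1 * w, ?_⟩
    rw [← Representation.asAlgebraHom_single_one,
      Representation.asAlgebraHom_ofMulAction_smul_eq_mul]
    simp [mul_assoc]

/-- The Kronecker coefficient. -/
def kron {n : ℕ} {l μ ν : YoungDiagram} (tl : Tableau n l) (tμ : Tableau n μ) (tν : Tableau n ν) :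
    ℕ :=
  Module.finrank ℂ (Representation.IntertwiningMap (specht tν).toRepresentation
    ((specht tl).toRepresentation.tprod (specht tμ).toRepresentation))

/-- The staircase diagram with rows of lengths `m, m - 1, …, 1`. -/
def staircase (m : ℕ) : YoungDiagram where
  cells := (range m ×ˢ range m).filter fun c => c.1 + c.2 < m
  isLowerSet := by
    intro a b hba ha
    have h1 := hba.1
    have h2 := hba.2
    simp only [coe_filter, mem_product, mem_range, Set.mem_ofPred_eq] at ha ⊢
    omega

lemma mem_staircase {m : ℕ} {c : ℕ × ℕ} : c ∈ (staircase m).cells ↔ c.1 + c.2 < m := by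
  simp only [staircase, mem_filter, mem_product, mem_range]
  omega

/-- The triangle structure given by a staircase tableau. -/
def tri {Ω : Type} {m : ℕ} (t : Ω ≃ (staircase m).cells) : Tri Ω m where
  a x := (t x).1.1
  b x := (t x).1.2
  c x := m - 1 - (t x).1.1 - (t x).1.2
  sum x := by have := mem_staircase.1 (t x).2; omega
  inj x y h1 h2 := t.injective (Subtype.ext (Prod.ext h1 h2))
  surj i j h := ⟨t.symm ⟨(i, j), mem_staircase.2 h⟩, by simp, by simp⟩

lemma card_staircase (m : ℕ) : (staircase m).card = m * (m + 1) / 2 := by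
  have h1 := (tri (Equiv.refl (staircase m).cells)).card_tri m le_rfl
  rw [Finset.filter_true_of_mem (fun x _ => by omega)] at h1
  simp only [card_univ, Fintype.card_coe] at h1
  simp only [YoungDiagram.card]
  omega

/-- Extension of scalars. -/
def toC {n : ℕ} : GA (Fin n) →+* MonoidAlgebra ℂ (Perm (Fin n)) :=
  MonoidAlgebra.mapRingHom (Perm (Fin n)) (Int.castRingHom ℂ)

lemma toC_coeff {n : ℕ} (x : GA (Fin n)) (g : Perm (Fin n)) :
    (toC x).coeff g = (x.coeff g : ℂ) := by
  simp [toC, MonoidAlgebra.coeff_mapRingHom]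

lemma toC_ys {n : ℕ} {μ : YoungDiagram} (t : Tableau n μ) :
    toC (ys t) = colAnti t * rowSym t := by
  rw [ys, map_mul]
  congr 1
  · apply MonoidAlgebra.coeff_injective
    ext g
    simp only [toC_coeff, M_coeff, mem_St, colAnti, MonoidAlgebra.coeff_sum,
      Finsupp.finsetSum_apply, MonoidAlgebra.coeff_single, Finsupp.single_apply,
      Finset.sum_ite_eq', mem_filter, mem_univ, true_and, sg]
    split_ifs <;> simp
  · apply MonoidAlgebra.coeff_injective
    ext g
    simp only [toC_coeff, P_coeff, mem_St, rowSym, MonoidAlgebra.coeff_sum,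
      Finsupp.finsetSum_apply, MonoidAlgebra.coeff_single, Finsupp.single_apply,
      Finset.sum_ite_eq', mem_filter, mem_univ, true_and]
    split_ifs <;> simp

lemma finrank_pos_of_ne {G V W : Type} [Monoid G] [AddCommGroup V] [AddCommGroup W] [Module ℂ V]
    [Module ℂ W] [Module.Finite ℂ V] [Module.Finite ℂ W] (ρ : Representation ℂ G V)
    (σ : Representation ℂ G W) (F : ρ.IntertwiningMap σ) (h : F ≠ 0) :
    0 < Module.finrank ℂ (ρ.IntertwiningMap σ) :=
  Module.finrank_pos_iff_exists_ne_zero.2 ⟨F, h⟩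

lemma kron_pos {n : ℕ} {l μ ν : YoungDiagram} (t1 : Tableau n l) (t2 : Tableau n μ)
    (t3 : Tableau n ν) {p1 p2 : GA (Fin n)} {g1 g2 : Perm (Fin n)}
    (h : TT (ys t3) (p1 * ys t1) (p2 * ys t2) g1 g2 ≠ 0) : 0 < kron t1 t2 t3 := by
  let x1 : (specht t1).toSubmodule := ⟨toC (p1 * ys t1), toC p1, by simp [toC_ys, mul_assoc]⟩
  let x2 : (specht t2).toSubmodule := ⟨toC (p2 * ys t2), toC p2, by simp [toC_ys, mul_assoc]⟩
  let x3 : (specht t3).toSubmodule := ⟨toC (ys t3), 1, by simp [toC_ys]⟩
  let ρ := (specht t1).toRepresentation.tprod (specht t2).toRepresentation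
  let f : (specht t3).toSubmodule →ₗ[ℂ] _ :=
    (LinearMap.applyₗ (x1 ⊗ₜ[ℂ] x2)) ∘ₗ ρ.asAlgebraHom.toLinearMap ∘ₗ
      (specht t3).toSubmodule.subtype
  have hf : ∀ y, f y = ρ.asAlgebraHom y.1 (x1 ⊗ₜ[ℂ] x2) := fun _ => rfl
  let F : Representation.IntertwiningMap (specht t3).toRepresentation ρ :=
    f.intertwiningMap_of_isIntertwiningMap _ _ (by
      intro g v
      rw [hf, hf]
      have : ((specht t3).toRepresentation g v).1 = MonoidAlgebra.single g 1 * v.1 := by
        rw [← Representation.asAlgebraHom_ofMulAction_smul_eq_mul,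
          Representation.asAlgebraHom_single_one]
        rfl
      rw [this, map_mul, Representation.asAlgebraHom_single_one]
      rfl)
  let ev : ∀ {κ : YoungDiagram} (t : Tableau n κ) (_ : Perm (Fin n)),
      (specht t).toSubmodule →ₗ[ℂ] ℂ := fun t g =>
    { toFun := fun y => y.1.coeff g
      map_add' := fun _ _ => rfl
      map_smul' := fun _ _ => rfl }
  let E := TensorProduct.lift ((LinearMap.mul ℂ ℂ).compl₁₂ (ev t1 g1) (ev t2 g2))
  have hE : E (F x3) = ((TT (ys t3) (p1 * ys t1) (p2 * ys t2) g1 g2 : ℤ) : ℂ) := by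
    change E (f x3) = _
    rw [hf, Representation.asAlgebraHom_def, MonoidAlgebra.lift_apply, Finsupp.sum_fintype]
    · simp only [TT, LinearMap.sum_apply, LinearMap.smul_apply, map_sum, map_smul, Int.cast_sum,
        Int.cast_mul, ← toC_coeff]
      apply Finset.sum_congr rfl
      intro g _
      simp only [ρ, E, Representation.tprod_apply, TensorProduct.map_tmul,
        TensorProduct.lift.tmul, LinearMap.compl₁₂_apply, LinearMap.mul_apply', smul_eq_mul,
        mul_assoc]
      congr 2
      · exact Representation.coeff_ofMulAction g _ g1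
      · exact Representation.coeff_ofMulAction g _ g2
    · intro g
      simp
  refine finrank_pos_of_ne (V := (specht t3).toSubmodule)
    (W := TensorProduct ℂ (specht t1).toSubmodule (specht t2).toSubmodule) _ _ F fun h0 => h ?_
  rw [h0] at hE
  simpa using hE.symm

theorem result (m : ℕ) (_hm : 1 ≤ m) (ν : YoungDiagram) (hν : ν.card = m * (m + 1) / 2) :
    Nonempty (Tableau (m * (m + 1) / 2) (staircase m)) ∧ Nonempty (Tableau (m * (m + 1) / 2) ν) ∧
      ∀ (t₁ t₂ : Tableau (m * (m + 1) / 2) (staircase m)) (t₃ : Tableau (m * (m + 1) / 2) ν),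
        0 < kron t₁ t₂ t₃ := by
  refine ⟨⟨(Finset.equivFinOfCardEq (card_staircase m)).symm⟩,
    ⟨(Finset.equivFinOfCardEq hν).symm⟩, fun t1 t2 t3 => ?_⟩
  obtain ⟨p1, p2, g1, g2, h⟩ := saxl_int (tri t1) t3
  have e1 : (tri t1).c0 = ys t1 := rfl
  have e2 : ys t1 = e (t1.trans t2.symm)⁻¹ * ys t2 * e (t1.trans t2.symm) := by
    rw [← ys_conj]
    congr 1
    apply Equiv.ext
    intro x
    simp
  rw [e1] at h
  nth_rewrite 2 [e2] at h
  rw [← mul_assoc, ← mul_assoc, TT_mul2, r2] at h
  obtain ⟨a, -, ha⟩ := Finset.exists_ne_zero_of_sum_ne_zero h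
  exact kron_pos t1 t2 t3 (left_ne_zero_of_mul ha)

end

end Vale.Agent.Results.P197.Saxl
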